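import Vale.Agent.Lib.P340.Defs

namespace Vale.Agent.Lib.P340

universe u v

variable {S : Type u} {T : Type v}

/-- Apply a map to all sorts of an expression. -/
def Expr.map (f : S → T) : Expr S → Expr T
  | .var n => .var n
  | .sort s => .sort (f s)
  | .app M N => .app (M.map f) (N.map f)
  | .lam A M => .lam (A.map f) (M.map f)
  | .pi A B => .pi (A.map f) (B.map f)

theorem Expr.map_lift (f : S → T) (M : Expr S) (c : ℕ) : (M.lift c).map f = (M.map f).lift c := by
  induction M generalizing c with
  | var n =>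
      simp only [Expr.lift, Expr.map]
      split_ifs <;> rfl
  | sort s => rfl
  | app M N ihM ihN => simp only [Expr.lift, Expr.map, ihM, ihN]
  | lam A M ihA ihM => simp only [Expr.lift, Expr.map, ihA, ihM]
  | pi A M ihA ihM => simp only [Expr.lift, Expr.map, ihA, ihM]

theorem Expr.map_subst (f : S → T) (M N : Expr S) (k : ℕ) :
    (M.subst k N).map f = (M.map f).subst k (N.map f) := by
  induction M generalizing k N with
  | var n =>
      simp only [Expr.subst, Expr.map]
      split_ifs <;> rfl
  | sort s => rfl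
  | app M₁ M₂ ih₁ ih₂ => simp only [Expr.subst, Expr.map, ih₁, ih₂]
  | lam A M ihA ihM => simp only [Expr.subst, Expr.map, ihA, ihM, Expr.map_lift]
  | pi A M ihA ihM => simp only [Expr.subst, Expr.map, ihA, ihM, Expr.map_lift]

theorem Expr.map_map {R : Type*} (f : S → T) (g : T → R) (M : Expr S) :
    (M.map f).map g = M.map (g ∘ f) := by
  induction M with
  | var n => rfl
  | sort s => rfl
  | app M N ihM ihN => simp only [Expr.map, ihM, ihN]
  | lam A M ihA ihM => simp only [Expr.map, ihA, ihM]
  | pi A M ihA ihM => simp only [Expr.map, ihA, ihM]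

theorem Expr.map_id' (M : Expr S) : M.map id = M := by
  induction M with
  | var n => rfl
  | sort s => rfl
  | app M N ihM ihN => simp only [Expr.map, ihM, ihN]
  | lam A M ihA ihM => simp only [Expr.map, ihA, ihM]
  | pi A M ihA ihM => simp only [Expr.map, ihA, ihM]

theorem Step.map (f : S → T) {M N : Expr S} (h : Step M N) : Step (M.map f) (N.map f) := by
  induction h with
  | beta A M N =>
      simp only [Expr.map, Expr.map_subst]
      exact Step.beta _ _ _
  | appL N _ ih => exact Step.appL _ ih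
  | appR M _ ih => exact Step.appR _ ih
  | lamDom M _ ih => exact Step.lamDom _ ih
  | lamBody A _ ih => exact Step.lamBody _ ih
  | piDom B _ ih => exact Step.piDom _ ih
  | piBody A _ ih => exact Step.piBody _ ih

theorem eqv_map (f : S → T) {M N : Expr S} (h : Relation.EqvGen Step M N) :
    Relation.EqvGen Step (M.map f) (N.map f) := by
  induction h with
  | rel _ _ h => exact Relation.EqvGen.rel _ _ (Step.map f h)
  | refl _ => exact Relation.EqvGen.refl _
  | symm _ _ _ ih => exact Relation.EqvGen.symm _ _ ih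
  | trans _ _ _ _ _ ih₁ ih₂ => exact Relation.EqvGen.trans _ _ _ ih₁ ih₂

theorem rtg_map (f : S → T) {M N : Expr S} (h : Relation.ReflTransGen Step M N) :
    Relation.ReflTransGen Step (M.map f) (N.map f) := by
  induction h with
  | refl => exact Relation.ReflTransGen.refl
  | tail _ h ih => exact ih.tail (Step.map f h)

/-- A step from the image of an expression gives a step from the expression. -/
theorem Step.of_map (f : S → T) (M : Expr S) {K : Expr T} (h : Step (M.map f) K) :
    ∃ M', Step M M' := by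
  induction M generalizing K with
  | var n => cases h
  | sort s => cases h
  | app M N ihM ihN =>
      simp only [Expr.map] at h
      generalize hM0 : M.map f = M0 at h
      cases h with
      | beta A B C =>
          cases M with
          | lam A' B' => exact ⟨_, Step.beta _ _ _⟩
          | var n => cases hM0
          | sort s => cases hM0
          | app _ _ => cases hM0
          | pi _ _ => cases hM0
      | appL _ h' =>
          subst hM0
          obtain ⟨M', hM'⟩ := ihM h'
          exact ⟨_, Step.appL _ hM'⟩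
      | appR _ h' =>
          obtain ⟨M', hM'⟩ := ihN h'
          exact ⟨_, Step.appR _ hM'⟩
  | lam A M ihA ihM =>
      simp only [Expr.map] at h
      cases h with
      | lamDom _ h' =>
          obtain ⟨M', hM'⟩ := ihA h'
          exact ⟨_, Step.lamDom _ hM'⟩
      | lamBody _ h' =>
          obtain ⟨M', hM'⟩ := ihM h'
          exact ⟨_, Step.lamBody _ hM'⟩
  | pi A M ihA ihM =>
      simp only [Expr.map] at h
      cases h with
      | piDom _ h' =>
          obtain ⟨M', hM'⟩ := ihA h'
          exact ⟨_, Step.piDom _ hM'⟩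
      | piBody _ h' =>
          obtain ⟨M', hM'⟩ := ihM h'
          exact ⟨_, Step.piBody _ hM'⟩

/-- Maps of sorts which respect axioms and rules transport derivations. -/
theorem HasType.map {P : PTS S} {Q : PTS T} (f : S → T)
    (hA : ∀ a b, P.Ax a b → Q.Ax (f a) (f b))
    (hR : ∀ a b c, P.Rule a b c → Q.Rule (f a) (f b) (f c))
    {Γ : List (Expr S)} {M B : Expr S} (h : HasType P Γ M B) :
    HasType Q (Γ.map (Expr.map f)) (M.map f) (B.map f) := by
  induction h with
  | ax h => exact HasType.ax (hA _ _ h)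
  | hyp _ ih =>
      rw [Expr.map_lift]
      exact HasType.hyp ih
  | weak _ _ ih₁ ih₂ =>
      rw [Expr.map_lift, Expr.map_lift]
      exact HasType.weak ih₁ ih₂
  | prod _ _ hr ih₁ ih₂ => exact HasType.prod ih₁ ih₂ (hR _ _ _ hr)
  | abs _ _ ih₁ ih₂ => exact HasType.abs ih₁ ih₂
  | app _ _ ih₁ ih₂ =>
      rw [Expr.map_subst]
      exact HasType.app ih₁ ih₂
  | conv _ _ hc ih₁ ih₂ => exact HasType.conv ih₁ ih₂ (eqv_map f hc)

theorem Legal.map {P : PTS S} {Q : PTS T} (f : S → T)
    (hA : ∀ a b, P.Ax a b → Q.Ax (f a) (f b))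
    (hR : ∀ a b c, P.Rule a b c → Q.Rule (f a) (f b) (f c))
    {M : Expr S} (h : Legal P M) : Legal Q (M.map f) := by
  obtain ⟨Γ, B, h | h⟩ := h
  · exact ⟨_, _, Or.inl (h.map f hA hR)⟩
  · exact ⟨_, _, Or.inr (h.map f hA hR)⟩

/-- The sub-specification of axioms and rules all of whose sorts lie in `F`. -/
def PTS.restrict (P : PTS S) (F : Finset S) : PTS S where
  Ax a b := P.Ax a b ∧ a ∈ F ∧ b ∈ F
  Rule a b c := P.Rule a b c ∧ a ∈ F ∧ b ∈ F ∧ c ∈ F

theorem HasType.mono {P : PTS S} {F F' : Finset S} (hF : F ⊆ F') {Γ : List (Expr S)} {M B : Expr S}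
    (h : HasType (P.restrict F) Γ M B) : HasType (P.restrict F') Γ M B := by
  induction h with
  | ax h => exact HasType.ax ⟨h.1, hF h.2.1, hF h.2.2⟩
  | hyp _ ih => exact HasType.hyp ih
  | weak _ _ ih₁ ih₂ => exact HasType.weak ih₁ ih₂
  | prod _ _ hr ih₁ ih₂ =>
      exact HasType.prod ih₁ ih₂ ⟨hr.1, hF hr.2.1, hF hr.2.2.1, hF hr.2.2.2⟩
  | abs _ _ ih₁ ih₂ => exact HasType.abs ih₁ ih₂
  | app _ _ ih₁ ih₂ => exact HasType.app ih₁ ih₂
  | conv _ _ hc ih₁ ih₂ => exact HasType.conv ih₁ ih₂ hc

/-- Every derivation uses only finitely many sorts in its axioms and rules. -/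
theorem HasType.exists_finset [DecidableEq S] {P : PTS S} {Γ : List (Expr S)} {M B : Expr S}
    (h : HasType P Γ M B) : ∃ F : Finset S, F.Nonempty ∧ HasType (P.restrict F) Γ M B := by
  induction h with
  | @ax s₁ s₂ h =>
      refine ⟨{s₁, s₂}, ⟨s₁, by simp⟩, HasType.ax ⟨h, by simp, by simp⟩⟩
  | hyp _ ih =>
      obtain ⟨F, hne, hF⟩ := ih
      exact ⟨F, hne, HasType.hyp hF⟩
  | weak _ _ ih₁ ih₂ =>
      obtain ⟨F₁, hne, hF₁⟩ := ih₁
      obtain ⟨F₂, _, hF₂⟩ := ih₂
      exact ⟨F₁ ∪ F₂, hne.mono Finset.subset_union_left,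
        HasType.weak (hF₁.mono Finset.subset_union_left) (hF₂.mono Finset.subset_union_right)⟩
  | @prod _ _ _ s₁ s₂ s₃ _ _ hr ih₁ ih₂ =>
      obtain ⟨F₁, hne, hF₁⟩ := ih₁
      obtain ⟨F₂, _, hF₂⟩ := ih₂
      refine ⟨F₁ ∪ F₂ ∪ {s₁, s₂, s₃}, ?_, ?_⟩
      · exact hne.mono (Finset.subset_union_left.trans Finset.subset_union_left)
      · refine HasType.prod (hF₁.mono ?_) (hF₂.mono ?_) ⟨hr, by simp, by simp, by simp⟩
        · exact Finset.subset_union_left.trans Finset.subset_union_left
        · exact Finset.subset_union_right.trans Finset.subset_union_left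
  | abs _ _ ih₁ ih₂ =>
      obtain ⟨F₁, hne, hF₁⟩ := ih₁
      obtain ⟨F₂, _, hF₂⟩ := ih₂
      exact ⟨F₁ ∪ F₂, hne.mono Finset.subset_union_left,
        HasType.abs (hF₁.mono Finset.subset_union_left)
          (hF₂.mono Finset.subset_union_right)⟩
  | app _ _ ih₁ ih₂ =>
      obtain ⟨F₁, hne, hF₁⟩ := ih₁
      obtain ⟨F₂, _, hF₂⟩ := ih₂
      exact ⟨F₁ ∪ F₂, hne.mono Finset.subset_union_left,
        HasType.app (hF₁.mono Finset.subset_union_left)
          (hF₂.mono Finset.subset_union_right)⟩
  | conv _ _ hc ih₁ ih₂ =>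
      obtain ⟨F₁, hne, hF₁⟩ := ih₁
      obtain ⟨F₂, _, hF₂⟩ := ih₂
      exact ⟨F₁ ∪ F₂, hne.mono Finset.subset_union_left,
        HasType.conv (hF₁.mono Finset.subset_union_left)
          (hF₂.mono Finset.subset_union_right) hc⟩

/-- **Compactness.** Every weakly normalizing but not strongly normalizing specification has a
restriction to finitely many sorts which is again weakly normalizing and not strongly
normalizing. -/
theorem exists_finite_restriction {S : Type u} (P : PTS S) (hWN : P.WN) (hSN : ¬ P.SN) :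
    ∃ (n : ℕ) (e : Fin n → S), Function.Injective e ∧ (P.comap e).WN ∧ ¬ (P.comap e).SN := by
  classical
  unfold PTS.SN at hSN
  push Not at hSN
  obtain ⟨M, hL, f, hf0, hf⟩ := hSN
  -- a finite set of sorts enough for the legality of `M`
  have : ∃ F : Finset S, F.Nonempty ∧ Legal (P.restrict F) M := by
    obtain ⟨Γ, B, h | h⟩ := hL
    · obtain ⟨F, hne, hF⟩ := h.exists_finset
      exact ⟨F, hne, Γ, B, Or.inl hF⟩
    · obtain ⟨F, hne, hF⟩ := h.exists_finset
      exact ⟨F, hne, Γ, B, Or.inr hF⟩
  obtain ⟨F, ⟨s₀, hs₀⟩, hLF⟩ := this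
  let eqv := F.equivFin
  let e : Fin F.card → S := fun i => (eqv.symm i).1
  have he : Function.Injective e := fun i j hij => eqv.symm.injective (Subtype.ext hij)
  let r : S → Fin F.card := fun s => if h : s ∈ F then eqv ⟨s, h⟩ else eqv ⟨s₀, hs₀⟩
  have hre : ∀ i, r (e i) = i := by
    intro i
    have hi : e i ∈ F := (eqv.symm i).2
    simp only [r, dif_pos hi]
    have : (⟨e i, hi⟩ : { x // x ∈ F }) = eqv.symm i := rfl
    rw [this, Equiv.apply_symm_apply]
  have her : ∀ s ∈ F, e (r s) = s := by
    intro s hs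
    simp only [r, dif_pos hs, e, Equiv.symm_apply_apply]
  refine ⟨F.card, e, he, ?_, ?_⟩
  · -- weak normalization of the restriction
    intro M' hM'
    have h1 : Legal P (M'.map e) := hM'.map e (fun _ _ h => h) (fun _ _ _ h => h)
    obtain ⟨N, hN, hNn⟩ := hWN _ h1
    have h2 := rtg_map r hN
    have h3 : (M'.map e).map r = M' := by
      rw [Expr.map_map]
      have : r ∘ e = id := funext hre
      rw [this, Expr.map_id']
    rw [h3] at h2
    refine ⟨_, h2, fun K hK => ?_⟩
    obtain ⟨N', hN'⟩ := Step.of_map r N hK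
    exact hNn _ hN'
  · -- failure of strong normalization
    intro hQ
    have hL' : Legal (P.comap e) (M.map r) := by
      refine hLF.map r ?_ ?_
      · intro a b h
        show P.Ax (e (r a)) (e (r b))
        rw [her a h.2.1, her b h.2.2]
        exact h.1
      · intro a b c h
        show P.Rule (e (r a)) (e (r b)) (e (r c))
        rw [her a h.2.1, her b h.2.2.1, her c h.2.2.2]
        exact h.1
    refine hQ _ hL' ⟨fun i => (f i).map r, ?_, fun i => Step.map r (hf i)⟩
    show (f 0).map r = M.map r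
    rw [hf0]

end Vale.Agent.Lib.P340
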