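import Mathlib

namespace Vale.Agent.Lib.P340

universe u v

/-- A pure type specification on a type of sorts: axioms and rules. -/
structure PTS (S : Type u) where
  Ax : S → S → Prop
  Rule : S → S → S → Prop

/-- Expressions with de Bruijn indices (so renaming of bound variables is built in). -/
inductive Expr (S : Type u) : Type u
  | var : ℕ → Expr S
  | sort : S → Expr S
  | app : Expr S → Expr S → Expr S
  | lam : Expr S → Expr S → Expr S
  | pi : Expr S → Expr S → Expr S

variable {S : Type u} {T : Type v}

/-- Raise by one every free index at or above the cutoff `c`. -/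
def Expr.lift (c : ℕ) : Expr S → Expr S
  | .var n => if n < c then .var n else .var (n + 1)
  | .sort s => .sort s
  | .app M N => .app (M.lift c) (N.lift c)
  | .lam A M => .lam (A.lift c) (M.lift (c + 1))
  | .pi A B => .pi (A.lift c) (B.lift (c + 1))

/-- `M.subst k N`: substitute `N` for the free index `k` of `M`, lowering the higher ones. -/
def Expr.subst : Expr S → ℕ → Expr S → Expr S
  | .var n, k, N => if n < k then .var n else if n = k then N else .var (n - 1)
  | .sort s, _, _ => .sort s
  | .app M₁ M₂, k, N => .app (M₁.subst k N) (M₂.subst k N)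
  | .lam A M, k, N => .lam (A.subst k N) (M.subst (k + 1) (N.lift 0))
  | .pi A B, k, N => .pi (A.subst k N) (B.subst (k + 1) (N.lift 0))

/-- One step of beta reduction: the compatible closure, including the domains of binders. -/
inductive Step : Expr S → Expr S → Prop
  | beta (A M N : Expr S) : Step (.app (.lam A M) N) (M.subst 0 N)
  | appL {M M' : Expr S} (N : Expr S) : Step M M' → Step (.app M N) (.app M' N)
  | appR (M : Expr S) {N N' : Expr S} : Step N N' → Step (.app M N) (.app M N')
  | lamDom {A A' : Expr S} (M : Expr S) : Step A A' → Step (.lam A M) (.lam A' M)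
  | lamBody (A : Expr S) {M M' : Expr S} : Step M M' → Step (.lam A M) (.lam A M')
  | piDom {A A' : Expr S} (B : Expr S) : Step A A' → Step (.pi A B) (.pi A' B)
  | piBody (A : Expr S) {B B' : Expr S} : Step B B' → Step (.pi A B) (.pi A B')

/-- The typing relation of a pure type specification. Contexts are lists, most recent
declaration first; the type stored for index `0` lives in the context behind it. -/
inductive HasType (P : PTS S) : List (Expr S) → Expr S → Expr S → Prop
  | ax {s₁ s₂ : S} : P.Ax s₁ s₂ → HasType P [] (.sort s₁) (.sort s₂)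
  | hyp {Γ : List (Expr S)} {A : Expr S} {s : S} :
      HasType P Γ A (.sort s) → HasType P (A :: Γ) (.var 0) (A.lift 0)
  | weak {Γ : List (Expr S)} {M B A : Expr S} {s : S} :
      HasType P Γ M B → HasType P Γ A (.sort s) → HasType P (A :: Γ) (M.lift 0) (B.lift 0)
  | prod {Γ : List (Expr S)} {A B : Expr S} {s₁ s₂ s₃ : S} :
      HasType P Γ A (.sort s₁) → HasType P (A :: Γ) B (.sort s₂) → P.Rule s₁ s₂ s₃ →
        HasType P Γ (.pi A B) (.sort s₃)
  | abs {Γ : List (Expr S)} {A M B : Expr S} {s : S} :
      HasType P (A :: Γ) M B → HasType P Γ (.pi A B) (.sort s) →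
        HasType P Γ (.lam A M) (.pi A B)
  | app {Γ : List (Expr S)} {M N A B : Expr S} :
      HasType P Γ M (.pi A B) → HasType P Γ N A → HasType P Γ (.app M N) (B.subst 0 N)
  | conv {Γ : List (Expr S)} {M A B : Expr S} {s : S} :
      HasType P Γ M A → HasType P Γ B (.sort s) → Relation.EqvGen Step A B → HasType P Γ M B

/-- An expression is legal if it is the subject or the type of a derivable judgment. -/
def Legal (P : PTS S) (M : Expr S) : Prop :=
  ∃ (Γ : List (Expr S)) (B : Expr S), HasType P Γ M B ∨ HasType P Γ B M

/-- Weak normalization: every legal expression reduces to a normal form. -/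
def PTS.WN (P : PTS S) : Prop :=
  ∀ M, Legal P M → ∃ N, Relation.ReflTransGen Step M N ∧ ∀ N', ¬ Step N N'

/-- Strong normalization: no legal expression starts an infinite reduction sequence. -/
def PTS.SN (P : PTS S) : Prop :=
  ∀ M, Legal P M → ¬ ∃ f : ℕ → Expr S, f 0 = M ∧ ∀ i, Step (f i) (f (i + 1))

/-- The restriction of a specification along a map of sorts. -/
def PTS.comap (P : PTS S) (e : T → S) : PTS T where
  Ax a b := P.Ax (e a) (e b)
  Rule a b c := P.Rule (e a) (e b) (e c)

end Vale.Agent.Lib.P340
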